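import Mathlib
import Vale.Agent.Lib.P201.MaxPrinciple

namespace Vale.Agent.Results.P201.DominantCoeff

open Vale.Agent.Lib.P201

/-- Kaplansky zero-divisor question, dominant-coefficient case.
Let `G` be a torsion-free group, `K` a ring with an absolute value `v` (for instance a field
with any real-valued absolute value, such as the complex numbers with the usual one, or any
field with the trivial one).  If a nonzero `α ∈ K[G]` has a coefficient whose absolute value
is at least the sum of the absolute values of all its other coefficients, then `α` is neither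
a left nor a right zero divisor in `K[G]`. -/
theorem result {K G : Type*} [Ring K] [Group G] [DecidableEq G]
    (hG : ∀ g : G, g ≠ 1 → ∀ n : ℕ, 0 < n → g ^ n ≠ 1)
    (v : AbsoluteValue K ℝ) (α β : MonoidAlgebra K G) (g₀ : G) (hα : α ≠ 0)
    (hdom : ∑ g ∈ α.coeff.support.erase g₀, v (α.coeff g) ≤ v (α.coeff g₀)) :
    (α * β = 0 → β = 0) ∧ (β * α = 0 → β = 0) := by
  -- the dominant coefficient is nonzero
  have ha0 : 0 < v (α.coeff g₀) := by
    by_contra h
    have h0 : v (α.coeff g₀) = 0 := le_antisymm (not_lt.1 h) (v.nonneg _)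
    have hsum : ∑ g ∈ α.coeff.support.erase g₀, v (α.coeff g) = 0 :=
      le_antisymm (h0 ▸ hdom) (Finset.sum_nonneg fun g _ => v.nonneg _)
    have hall := (Finset.sum_eq_zero_iff_of_nonneg (fun g _ => v.nonneg _)).1 hsum
    apply hα
    rw [← MonoidAlgebra.coeff_eq_zero]
    ext g
    by_cases hg : g = g₀
    · subst hg; simpa using (v.eq_zero).1 h0
    · by_contra hne
      have hmem : g ∈ α.coeff.support.erase g₀ :=
        Finset.mem_erase.2 ⟨hg, Finsupp.mem_support_iff.2 hne⟩
      exact hne ((v.eq_zero).1 (hall g hmem))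
  have hg₀ : g₀ ∈ α.coeff.support := by
    rw [Finsupp.mem_support_iff]
    intro h
    rw [h, map_zero] at ha0
    exact lt_irrefl _ ha0
  have hw : ∀ s ∈ α.coeff.support.erase g₀, 0 < v (α.coeff s) := by
    intro s hs
    have := Finsupp.mem_support_iff.1 (Finset.mem_of_mem_erase hs)
    exact v.pos this
  have hfin : (Function.support fun y => v (β.coeff y)).Finite := by
    refine (β.coeff.support.finite_toSet).subset ?_
    intro y hy
    simp only [Function.mem_support, ne_eq, AbsoluteValue.eq_zero] at hy
    simpa using hy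
  have hpow : ∀ h : G, h ≠ 1 → Function.Injective (fun n : ℕ => h ^ n) := by
    intro h hh
    have key : ∀ m n : ℕ, m < n → h ^ m ≠ h ^ n := by
      intro m n hmn heq
      have h1 : h ^ (n - m) = 1 := by
        have : h ^ n = h ^ (n - m) * h ^ m := by
          rw [← pow_add, Nat.sub_add_cancel hmn.le]
        rw [this] at heq
        have h2 : 1 * h ^ m = h ^ (n - m) * h ^ m := by rw [one_mul]; exact heq
        exact (mul_right_cancel h2).symm
      exact hG h hh (n - m) (Nat.sub_pos_of_lt hmn) h1
    intro m n hmn
    rcases lt_trichotomy m n with hlt | heq | hgt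
    · exact absurd hmn (key m n hlt)
    · exact heq
    · exact absurd hmn.symm (key n m hgt)
  constructor
  · intro hprod
    have hzero := maxPrinciple (fun y => v (β.coeff y)) (fun y => v.nonneg _) hfin
      (α.coeff.support.erase g₀) (fun g => v (α.coeff g)) hw
      (fun g y => g⁻¹ * g₀ * y) (v (α.coeff g₀)) hdom ha0 ?_ ?_
    · rw [← MonoidAlgebra.coeff_eq_zero]
      ext y
      simpa using hzero y
    · intro y
      have h1 : (α * β).coeff (g₀ * y) = 0 := by rw [hprod]; rfl
      rw [MonoidAlgebra.coeff_mul_apply_left, Finsupp.sum,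
        ← Finset.add_sum_erase _ _ hg₀] at h1
      have h2 : α.coeff g₀ * β.coeff y
          = -∑ g ∈ α.coeff.support.erase g₀, α.coeff g * β.coeff (g⁻¹ * g₀ * y) := by
        have h3 : α.coeff g₀ * β.coeff (g₀⁻¹ * (g₀ * y)) = α.coeff g₀ * β.coeff y := by
          rw [inv_mul_cancel_left]
        rw [← h3]
        rw [eq_neg_iff_add_eq_zero]
        simpa [mul_assoc] using h1
      calc v (α.coeff g₀) * v (β.coeff y) = v (α.coeff g₀ * β.coeff y) := (v.map_mul _ _).symm
        _ = v (∑ g ∈ α.coeff.support.erase g₀, α.coeff g * β.coeff (g⁻¹ * g₀ * y)) := by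
            rw [h2, v.map_neg]
        _ ≤ ∑ g ∈ α.coeff.support.erase g₀, v (α.coeff g * β.coeff (g⁻¹ * g₀ * y)) :=
            v.sum_le _ _
        _ = ∑ g ∈ α.coeff.support.erase g₀, v (α.coeff g) * v (β.coeff (g⁻¹ * g₀ * y)) := by
            simp only [v.map_mul]
    · intro s hs y
      have hne : s⁻¹ * g₀ ≠ 1 := by
        intro h
        have : g₀ = s := by
          have := congrArg (fun t => s * t) h
          simpa using this
        exact (Finset.ne_of_mem_erase hs) this.symm
      have hiter : ∀ n : ℕ, (fun y => s⁻¹ * g₀ * y)^[n] y = (s⁻¹ * g₀) ^ n * y := by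
        intro n
        induction n with
        | zero => simp
        | succ n ih => rw [Function.iterate_succ_apply', ih, pow_succ', mul_assoc (s⁻¹ * g₀)]
      intro m n hmn
      simp only [hiter] at hmn
      exact hpow _ hne (mul_right_cancel hmn)
  · intro hprod
    have hzero := maxPrinciple (fun y => v (β.coeff y)) (fun y => v.nonneg _) hfin
      (α.coeff.support.erase g₀) (fun g => v (α.coeff g)) hw
      (fun g y => y * g₀ * g⁻¹) (v (α.coeff g₀)) hdom ha0 ?_ ?_
    · rw [← MonoidAlgebra.coeff_eq_zero]
      ext y
      simpa using hzero y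
    · intro y
      have h1 : (β * α).coeff (y * g₀) = 0 := by rw [hprod]; rfl
      rw [MonoidAlgebra.coeff_mul_apply_right, Finsupp.sum,
        ← Finset.add_sum_erase _ _ hg₀] at h1
      have h2 : β.coeff y * α.coeff g₀
          = -∑ g ∈ α.coeff.support.erase g₀, β.coeff (y * g₀ * g⁻¹) * α.coeff g := by
        have h3 : β.coeff (y * g₀ * g₀⁻¹) * α.coeff g₀ = β.coeff y * α.coeff g₀ := by
          rw [mul_inv_cancel_right]
        rw [← h3]
        rw [eq_neg_iff_add_eq_zero]
        simpa using h1
      calc v (α.coeff g₀) * v (β.coeff y) = v (β.coeff y * α.coeff g₀) := by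
            rw [v.map_mul, mul_comm]
        _ = v (∑ g ∈ α.coeff.support.erase g₀, β.coeff (y * g₀ * g⁻¹) * α.coeff g) := by
            rw [h2, v.map_neg]
        _ ≤ ∑ g ∈ α.coeff.support.erase g₀, v (β.coeff (y * g₀ * g⁻¹) * α.coeff g) :=
            v.sum_le _ _
        _ = ∑ g ∈ α.coeff.support.erase g₀, v (α.coeff g) * v (β.coeff (y * g₀ * g⁻¹)) := by
            simp only [v.map_mul, mul_comm]
    · intro s hs y
      have hne : g₀ * s⁻¹ ≠ 1 := by
        intro h
        have : g₀ = s := by
          have := congrArg (fun t => t * s) h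
          simpa using this
        exact (Finset.ne_of_mem_erase hs) this.symm
      have hiter : ∀ n : ℕ, (fun y => y * g₀ * s⁻¹)^[n] y = y * (g₀ * s⁻¹) ^ n := by
        intro n
        induction n with
        | zero => simp
        | succ n ih => rw [Function.iterate_succ_apply', ih, pow_succ, mul_assoc, mul_assoc]
      intro m n hmn
      simp only [hiter] at hmn
      exact hpow _ hne (mul_left_cancel hmn)

end Vale.Agent.Results.P201.DominantCoeff
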