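import Mathlib
import Vale.Agent.Lib.P201.LocalRed
import Vale.Agent.Lib.P201.FiniteFields

namespace Vale.Agent.Results.P201.FullReduction

universe u v

/-- **Reduction of the zero-divisor question to finite fields and to finitely generated groups
without unique-product quotients.**
Let `G` be a group and `K` a field.  Suppose that for every finite field `F` (of the same
characteristic as `K` if `K` has positive characteristic) and every finitely generated subgroup
`H` of `G` that admits no nontrivial homomorphism to a group with the unique-product property,
the group algebra `F[H]` has no zero divisors.  Then `K[G]` has no zero divisors. -/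
theorem result {G : Type u} [Group G] (K : Type v) [Field K]
    (h : ∀ (F : Type v) [Field F] [Finite F], (ringChar K ≠ 0 → ringChar F = ringChar K) →
      ∀ H : Subgroup G, H.FG →
        (¬ ∃ (U : Type u) (_ : Group U) (_ : UniqueProds U) (φ : H →* U), ∃ x : H, φ x ≠ 1) →
        NoZeroDivisors (MonoidAlgebra F H)) :
    NoZeroDivisors (MonoidAlgebra K G) := by
  apply Vale.Agent.Lib.P201.noZeroDivisors_of_finite_fields K
  intro F _ _ hchar
  apply Vale.Agent.Lib.P201.noZeroDivisors_of_local
  intro H hH
  by_cases hex : ∃ (U : Type u) (_ : Group U) (_ : UniqueProds U) (φ : H →* U),
      ∃ x : H, φ x ≠ 1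
  · exact Or.inr hex
  · exact Or.inl (h F hchar H hH hex)

end Vale.Agent.Results.P201.FullReduction
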