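import Mathlib
import Vale.Agent.Lib.P201.OneSided

namespace Vale.Agent.Results.P201.OneSidedSupport

open Vale.Agent.Lib.P201

/-- **Zero-divisor question: elements with one-sided support.**
Let `K` be a ring without zero divisors and `G` any group.  Let `α ∈ K[G]` and let `g₀` be a
point of its support such that the subsemigroup of `G` generated by the elements `g₀⁻¹ g`,
`g` in the support of `α`, `g ≠ g₀`, does not contain `1`.  Then `α` is neither a left nor a
right zero divisor in `K[G]`. -/
theorem result {K G : Type*} [Ring K] [NoZeroDivisors K] [Group G]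
    (α β : MonoidAlgebra K G) (g₀ : G) (hg₀ : α.coeff g₀ ≠ 0)
    (hS : (1 : G) ∉ Subsemigroup.closure
      ((fun g => g₀⁻¹ * g) '' {g : G | α.coeff g ≠ 0 ∧ g ≠ g₀})) :
    (α * β = 0 → β = 0) ∧ (β * α = 0 → β = 0) :=
  ⟨oneSided_left α β g₀ hg₀ hS, oneSided_right α β g₀ hg₀ hS⟩

end Vale.Agent.Results.P201.OneSidedSupport
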